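/-
helper51 -- S0355 squad (track D), leaf D2: the prism over a slanted facet, by symmetry.

`Φ x = Function.update x m (1 - ∑ i ∈ B, x i)` (`B` the block of `b`, `m ∈ B`) is an affine
involution of `P20 = Fin 20 → ℝ`; its linear part is the identity matrix with row `m` replaced by
`- 1_B`, of determinant `-1` (Cramer), so `Φ` preserves Lebesgue measure.  It preserves `KP`,
maps the slanted facet `lc (inr b) = 1` onto the coordinate facet `x m = 0`, and
`Φ (x - t • u) = Φ x - t • Φ₀ u`.
-/
import Crest.Agent.Helper28.S0355.Defs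

set_option autoImplicit false
open MeasureTheory
open scoped ENNReal Pointwise

namespace Crest.Agent.Helper51.S0355

open Crest.Agent.Helper28.S0355

/-- The identity matrix with row `m` replaced by `- 1_B`. -/
noncomputable def flipMat (B : Finset (Fin 20)) (m : Fin 20) : Matrix (Fin 20) (Fin 20) ℝ :=
  Matrix.updateRow 1 m (fun j => if j ∈ B then -1 else 0)

theorem flipMat_det (B : Finset (Fin 20)) (m : Fin 20) (hm : m ∈ B) :
    (flipMat B m).det = -1 := by
  unfold flipMat
  rw [← Matrix.cramer_transpose_apply, Matrix.transpose_one, Matrix.cramer_one]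
  simp [hm]

/-- The linear part of the involution. -/
def flipLin (B : Finset (Fin 20)) (m : Fin 20) (x : P20) : P20 :=
  Function.update x m (- ∑ i ∈ B, x i)

theorem flipMat_mulVec (B : Finset (Fin 20)) (m : Fin 20) (x : P20) :
    (flipMat B m).mulVec x = flipLin B m x := by
  ext i
  by_cases hi : i = m
  · subst hi
    simp [flipMat, flipLin, Matrix.mulVec, dotProduct, Finset.sum_ite_mem, ite_mul]
  · simp [flipMat, flipLin, Matrix.mulVec, hi, Matrix.updateRow_ne, Matrix.one_apply, dotProduct]

theorem flipLin_apply_self (B : Finset (Fin 20)) (m : Fin 20) (x : P20) :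
    flipLin B m x m = - ∑ i ∈ B, x i := by
  simp [flipLin]

theorem flipLin_apply_ne (B : Finset (Fin 20)) (m : Fin 20) (x : P20) (i : Fin 20) (hi : i ≠ m) :
    flipLin B m x i = x i := by
  simp [flipLin, hi]

theorem flipLin_sub_smul (B : Finset (Fin 20)) (m : Fin 20) (x u : P20) (t : ℝ) :
    flipLin B m (x - t • u) = flipLin B m x - t • flipLin B m u := by
  ext i
  by_cases hi : i = m
  · subst hi
    simp only [flipLin_apply_self, Pi.sub_apply, Pi.smul_apply, smul_eq_mul,
      Finset.sum_sub_distrib, ← Finset.mul_sum]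
    ring
  · simp [flipLin_apply_ne _ _ _ _ hi]

/-- Lebesgue measure is invariant under `x ↦ flipLin B m x + c` when `m ∈ B`. -/
theorem volume_preimage_flip (B : Finset (Fin 20)) (m : Fin 20) (hm : m ∈ B) (c : P20)
    (T : Set P20) :
    volume ((fun x : P20 => flipLin B m x + c) ⁻¹' T) = volume T := by
  have h1 : (fun x : P20 => flipLin B m x + c) ⁻¹' T
      = (Matrix.toLin' (flipMat B m)) ⁻¹' ((fun y : P20 => y + c) ⁻¹' T) := by
    ext x
    simp [Matrix.toLin'_apply, flipMat_mulVec]
  have hdet : LinearMap.det (Matrix.toLin' (flipMat B m)) = -1 := by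
    rw [LinearMap.det_toLin', flipMat_det _ _ hm]
  rw [h1, Measure.addHaar_preimage_linearMap volume (by rw [hdet]; norm_num), hdet,
    measure_preimage_add_right]
  simp

/-- The block of coordinates of the slanted constraint `b`. -/
def blk (b : Bool) : Finset (Fin 20) := if b then B2 else B1

/-- A pivot coordinate in the block. -/
def piv (b : Bool) : Fin 20 := if b then 19 else 0

theorem piv_mem (b : Bool) : piv b ∈ blk b := by
  cases b <;> decide

theorem piv_not_mem (b : Bool) : piv b ∉ blk (!b) := by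
  cases b <;> decide

theorem lc_inr_eq (b : Bool) (x : P20) : lc (Sum.inr b) x = ∑ i ∈ blk b, x i := by
  cases b <;> rfl

theorem mem_KP_blk (b : Bool) (x : P20) :
    x ∈ KP ↔ (∀ i, 0 ≤ x i) ∧ ∑ i ∈ blk b, x i ≤ 1 ∧ ∑ i ∈ blk (!b), x i ≤ 1 := by
  cases b
  · simp [KP, s1, s2, blk]
  · simp only [KP, s1, s2, blk, Set.mem_ofPred_eq, Bool.not_true, if_true]
    constructor
    · rintro ⟨h0, h1, h2⟩; exact ⟨h0, h2, h1⟩
    · rintro ⟨h0, h1, h2⟩; exact ⟨h0, h2, h1⟩

/-- The affine involution. -/
def flip (b : Bool) (x : P20) : P20 := flipLin (blk b) (piv b) x + Pi.single (piv b) 1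

theorem flip_apply_self (b : Bool) (x : P20) :
    flip b x (piv b) = 1 - ∑ i ∈ blk b, x i := by
  simp [flip, flipLin_apply_self]; ring

theorem flip_apply_ne (b : Bool) (x : P20) (i : Fin 20) (hi : i ≠ piv b) :
    flip b x i = x i := by
  simp [flip, flipLin_apply_ne _ _ _ _ hi, hi]

theorem sum_flip_blk (b : Bool) (x : P20) :
    ∑ i ∈ blk b, flip b x i = 1 - x (piv b) := by
  rw [← Finset.add_sum_erase _ _ (piv_mem b), flip_apply_self,
    ← Finset.add_sum_erase _ (fun i => x i) (piv_mem b)]
  have : ∑ i ∈ (blk b).erase (piv b), flip b x i = ∑ i ∈ (blk b).erase (piv b), x i :=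
    Finset.sum_congr rfl fun i hi => flip_apply_ne b x i (Finset.ne_of_mem_erase hi)
  rw [this]; ring

theorem sum_flip_other (b : Bool) (x : P20) :
    ∑ i ∈ blk (!b), flip b x i = ∑ i ∈ blk (!b), x i :=
  Finset.sum_congr rfl fun i hi => flip_apply_ne b x i (fun h => piv_not_mem b (h ▸ hi))

theorem flip_mem_KP (b : Bool) (x : P20) : flip b x ∈ KP ↔ x ∈ KP := by
  rw [mem_KP_blk b, mem_KP_blk b, sum_flip_blk, sum_flip_other]
  constructor
  · rintro ⟨h0, h1, h2⟩
    refine ⟨fun i => ?_, ?_, h2⟩
    · by_cases hi : i = piv b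
      · subst hi; linarith
      · have := h0 i; rwa [flip_apply_ne b x i hi] at this
    · have := h0 (piv b); rw [flip_apply_self] at this; linarith
  · rintro ⟨h0, h1, h2⟩
    refine ⟨fun i => ?_, ?_, h2⟩
    · by_cases hi : i = piv b
      · subst hi; rw [flip_apply_self]; linarith
      · rw [flip_apply_ne b x i hi]; exact h0 i
    · have := h0 (piv b); linarith

theorem flip_mem_facet (b : Bool) (x : P20) :
    flip b x ∈ facet (Sum.inl (piv b)) ↔ x ∈ facet (Sum.inr b) := by
  simp only [facet, Set.mem_ofPred_eq, flip_mem_KP, lc_inr_eq]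
  have : lc (Sum.inl (piv b)) (flip b x) = bc (Sum.inl (piv b)) ↔ ∑ i ∈ blk b, x i = bc (Sum.inr b) := by
    show - flip b x (piv b) = 0 ↔ ∑ i ∈ blk b, x i = 1
    rw [flip_apply_self]
    constructor <;> intro h <;> linarith
  rw [this]

theorem flip_sub_smul (b : Bool) (x u : P20) (t : ℝ) :
    flip b (x - t • u) = flip b x - t • flipLin (blk b) (piv b) u := by
  unfold flip
  rw [flipLin_sub_smul]
  abel

theorem sweep_facet_inr_eq (b : Bool) (u : P20) :
    sweep (facet (Sum.inr b)) u
      = (fun x : P20 => flipLin (blk b) (piv b) x + Pi.single (piv b) 1) ⁻¹'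
          sweep (facet (Sum.inl (piv b))) (flipLin (blk b) (piv b) u) := by
  ext x
  simp only [sweep, Set.mem_ofPred_eq, Set.mem_preimage]
  constructor
  · rintro ⟨t, ht, h⟩
    refine ⟨t, ht, ?_⟩
    have := (flip_mem_facet b (x - t • u)).2 h
    rwa [flip_sub_smul] at this
  · rintro ⟨t, ht, h⟩
    refine ⟨t, ht, ?_⟩
    apply (flip_mem_facet b (x - t • u)).1
    rw [flip_sub_smul]
    exact h

/-- **Leaf D2.** The prism over a slanted facet. -/
theorem volume_sweep_facet_inr
    (hC : ∀ (v : P20) (j : Fin 20), v j < 0 →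
      volume (sweep (facet (Sum.inl j)) v) =
        ENNReal.ofReal (- v j / ((Nat.factorial 9 : ℝ) * (Nat.factorial 10 : ℝ))))
    (u : P20) (b : Bool) (hb : 0 < lc (Sum.inr b) u) :
    volume (sweep (facet (Sum.inr b)) u) =
      ENNReal.ofReal (lc (Sum.inr b) u / ((Nat.factorial 9 : ℝ) * (Nat.factorial 10 : ℝ))) := by
  rw [sweep_facet_inr_eq, volume_preimage_flip _ _ (piv_mem b)]
  have hneg : flipLin (blk b) (piv b) u (piv b) < 0 := by
    rw [flipLin_apply_self, ← lc_inr_eq]; linarith
  rw [hC _ _ hneg, flipLin_apply_self, neg_neg, ← lc_inr_eq]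

end Crest.Agent.Helper51.S0355
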