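/-
helper51 -- S0355 squad (track D), leaf F (hedge copy): the Wulff shape of `κ·S` is `κ • W`.
-/
import Crest.Agent.Helper28.S0355.Defs

set_option autoImplicit false
open MeasureTheory
open scoped ENNReal Pointwise

namespace Crest.Agent.Helper51.S0355

open Crest.Agent.Helper28.S0355

theorem κ_pos' : 0 < κ := by
  unfold κ; positivity

theorem s1_smul' (c : ℝ) (v : P20) : s1 (c • v) = c * s1 v := by
  simp [s1, Finset.mul_sum]

theorem s2_smul' (c : ℝ) (v : P20) : s2 (c • v) = c * s2 v := by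
  simp [s2, Finset.mul_sum]

theorem S_smul' (c : ℝ) (v : P20) : S (c • v) = |c| * S v := by
  simp only [S, s1_smul', s2_smul', Pi.smul_apply, smul_eq_mul, abs_mul, ← Finset.mul_sum]
  ring

theorem s1_single' (i : Fin 20) (a : ℝ) : s1 (Pi.single i a) = if i ∈ B1 then a else 0 := by
  simp [s1, Finset.sum_pi_single']

theorem s2_single' (i : Fin 20) (a : ℝ) : s2 (Pi.single i a) = if i ∈ B1 then 0 else a := by
  simp [s2, B2, Finset.sum_pi_single']

theorem sum_abs_single' (i : Fin 20) (a : ℝ) : ∑ k, |(Pi.single i a : P20) k| = |a| := by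
  rw [Finset.sum_eq_single i]
  · simp
  · intro k _ hk; simp [hk]
  · intro h; exact absurd (Finset.mem_univ i) h

theorem S_single' (i : Fin 20) (a : ℝ) : S (Pi.single i a) = 2 * |a| := by
  unfold S
  rw [sum_abs_single', s1_single', s2_single']
  by_cases hi : i ∈ B1 <;> simp [hi] <;> ring

theorem S_single_sub_le' (i j : Fin 20) (hij : i ∈ B1 ↔ j ∈ B1) :
    S (Pi.single i 1 - Pi.single j 1) ≤ 2 := by
  have e1 : s1 (Pi.single i (1 : ℝ) - Pi.single j (1 : ℝ)) = 0 := by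
    have : s1 (Pi.single i (1 : ℝ) - Pi.single j (1 : ℝ))
        = s1 (Pi.single i (1 : ℝ)) - s1 (Pi.single j (1 : ℝ)) := by
      simp [s1, Finset.sum_sub_distrib]
    rw [this, s1_single', s1_single']
    by_cases hi : i ∈ B1
    · simp [hi, hij.1 hi]
    · have hj : j ∉ B1 := fun h => hi (hij.2 h)
      simp [hi, hj]
  have e2 : s2 (Pi.single i (1 : ℝ) - Pi.single j (1 : ℝ)) = 0 := by
    have : s2 (Pi.single i (1 : ℝ) - Pi.single j (1 : ℝ))
        = s2 (Pi.single i (1 : ℝ)) - s2 (Pi.single j (1 : ℝ)) := by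
      simp [s2, Finset.sum_sub_distrib]
    rw [this, s2_single', s2_single']
    by_cases hi : i ∈ B1
    · simp [hi, hij.1 hi]
    · have hj : j ∉ B1 := fun h => hi (hij.2 h)
      simp [hi, hj]
  unfold S
  rw [e1, e2]
  have : ∑ k, |(Pi.single i (1 : ℝ) - Pi.single j (1 : ℝ) : P20) k|
      ≤ ∑ k, (|(Pi.single i (1 : ℝ) : P20) k| + |(Pi.single j (1 : ℝ) : P20) k|) :=
    Finset.sum_le_sum fun k _ => abs_sub _ _
  rw [Finset.sum_add_distrib, sum_abs_single', sum_abs_single'] at this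
  simp only [abs_zero, add_zero, abs_one] at this ⊢
  linarith

/-- One block: `∑_B w i u i ≤ ∑_B |u i| + |∑_B u i|`. -/
theorem block_bound' (B : Finset (Fin 20)) (w u : P20) (h2 : ∀ i, |w i| ≤ 2)
    (hB : ∀ i ∈ B, ∀ j ∈ B, w i - w j ≤ 2) :
    ∑ i ∈ B, w i * u i ≤ ∑ i ∈ B, |u i| + |∑ i ∈ B, u i| := by
  obtain ⟨c, hc, hwc⟩ : ∃ c : ℝ, |c| ≤ 1 ∧ ∀ i ∈ B, |w i - c| ≤ 1 := by
    rcases B.eq_empty_or_nonempty with rfl | hne
    · exact ⟨0, by simp, by simp⟩
    · obtain ⟨i₀, hi₀, hmax⟩ := Finset.exists_max_image B w hne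
      refine ⟨max (-1) (w i₀ - 1), ?_, fun i hi => ?_⟩
      · rw [abs_le]
        constructor
        · exact le_max_left _ _
        · have := (abs_le.1 (h2 i₀)).2
          exact max_le (by norm_num) (by linarith)
      · rw [abs_le]
        constructor
        · have h1 := (abs_le.1 (h2 i)).1
          have h3 := hB i₀ hi₀ i hi
          have : max (-1) (w i₀ - 1) ≤ w i + 1 := max_le (by linarith) (by linarith)
          linarith
        · have h4 := hmax i hi
          have : w i₀ - 1 ≤ max (-1) (w i₀ - 1) := le_max_right _ _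
          linarith
  have e : ∑ i ∈ B, w i * u i = ∑ i ∈ B, (w i - c) * u i + c * ∑ i ∈ B, u i := by
    rw [Finset.mul_sum, ← Finset.sum_add_distrib]
    apply Finset.sum_congr rfl
    intros; ring
  rw [e]
  have t1 : ∑ i ∈ B, (w i - c) * u i ≤ ∑ i ∈ B, |u i| := by
    apply Finset.sum_le_sum
    intro i hi
    calc (w i - c) * u i ≤ |(w i - c) * u i| := le_abs_self _
      _ = |w i - c| * |u i| := abs_mul _ _
      _ ≤ 1 * |u i| := mul_le_mul_of_nonneg_right (hwc i hi) (abs_nonneg _)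
      _ = |u i| := one_mul _
  have t2 : c * ∑ i ∈ B, u i ≤ |∑ i ∈ B, u i| := by
    calc c * ∑ i ∈ B, u i ≤ |c * ∑ i ∈ B, u i| := le_abs_self _
      _ = |c| * |∑ i ∈ B, u i| := abs_mul _ _
      _ ≤ 1 * |∑ i ∈ B, u i| := mul_le_mul_of_nonneg_right hc (abs_nonneg _)
      _ = |∑ i ∈ B, u i| := one_mul _
  linarith

/-- `⊇`: every point of `W` pairs below `S`. -/
theorem sum_mul_le_S' (w u : P20) (hw : w ∈ W) : ∑ i, w i * u i ≤ S u := by
  obtain ⟨h2, h1, h3⟩ := hw
  have a1 := block_bound' B1 w u h2 h1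
  have a2 := block_bound' B2 w u h2 h3
  have e1 : ∑ i, w i * u i = ∑ i ∈ B1, w i * u i + ∑ i ∈ B2, w i * u i :=
    (Finset.sum_add_sum_compl B1 _).symm
  have e2 : ∑ i, |u i| = ∑ i ∈ B1, |u i| + ∑ i ∈ B2, |u i| :=
    (Finset.sum_add_sum_compl B1 _).symm
  unfold S
  rw [e1, e2]
  unfold s1 s2
  linarith

theorem inner_eq_sum' (x u : E20) : inner ℝ x u = ∑ i, (WithLp.ofLp x) i * (WithLp.ofLp u) i := by
  rw [PiLp.inner_apply]
  apply Finset.sum_congr rfl
  intro i _
  simp [mul_comm]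

theorem mem_image_iff' (x : E20) :
    x ∈ WithLp.toLp 2 '' (κ • W) ↔ κ⁻¹ • (WithLp.ofLp x : P20) ∈ W := by
  constructor
  · rintro ⟨y, ⟨w, hw, rfl⟩, rfl⟩
    simpa [smul_smul, inv_mul_cancel₀ κ_pos'.ne'] using hw
  · intro h
    refine ⟨WithLp.ofLp x, ⟨_, h, ?_⟩, rfl⟩
    simp [smul_smul, mul_inv_cancel₀ κ_pos'.ne']

/-- Homogeneous form of the polar condition. -/
theorem polar_hom' (x : E20)
    (h : ∀ u : E20, ‖u‖ = 1 → inner ℝ x u ≤ κ * S (WithLp.ofLp u)) (v : P20) :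
    ∑ i, (WithLp.ofLp x) i * v i ≤ κ * S v := by
  by_cases hv : (WithLp.toLp 2 v : E20) = 0
  · have hv0 : v = 0 := by
      have := congrArg WithLp.ofLp hv
      simpa using this
    subst hv0
    simp [S, s1, s2]
  · have hn : 0 < ‖(WithLp.toLp 2 v : E20)‖ := norm_pos_iff.mpr hv
    have h1 := h (‖(WithLp.toLp 2 v : E20)‖⁻¹ • (WithLp.toLp 2 v : E20))
      (by rw [norm_smul, norm_inv, norm_norm, inv_mul_cancel₀ hn.ne'])
    rw [inner_smul_right, WithLp.ofLp_smul, S_smul', abs_of_pos (inv_pos.mpr hn), inner_eq_sum'] at h1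
    have h2 := mul_le_mul_of_nonneg_left h1 hn.le
    have e1 : ‖(WithLp.toLp 2 v : E20)‖ * (‖(WithLp.toLp 2 v : E20)‖⁻¹ *
        ∑ i, (WithLp.ofLp x) i * (WithLp.ofLp (WithLp.toLp 2 v : E20)) i)
        = ∑ i, (WithLp.ofLp x) i * v i := by
      rw [← mul_assoc, mul_inv_cancel₀ hn.ne', one_mul]
    have e2 : ‖(WithLp.toLp 2 v : E20)‖ * (κ * (‖(WithLp.toLp 2 v : E20)‖⁻¹ *
        S (WithLp.ofLp (WithLp.toLp 2 v : E20)))) = κ * S v := by
      have : (WithLp.ofLp (WithLp.toLp 2 v : E20)) = v := rfl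
      rw [this]
      field_simp
    rw [e1, e2] at h2
    exact h2

/-- **Leaf F.** -/
theorem polar_eq :
    (⋂ u ∈ Metric.sphere (0 : E20) 1, {x : E20 | inner ℝ x u ≤ κ * S (WithLp.ofLp u)}) =
      WithLp.toLp 2 '' (κ • W) := by
  ext x
  rw [mem_image_iff']
  simp only [Set.mem_iInter, Set.mem_ofPred_eq, mem_sphere_zero_iff_norm]
  constructor
  · intro h
    have hom := polar_hom' x h
    have hκ := κ_pos'
    have key : ∀ i j : Fin 20, (i ∈ B1 ↔ j ∈ B1) →
        (κ⁻¹ • (WithLp.ofLp x : P20)) i - (κ⁻¹ • (WithLp.ofLp x : P20)) j ≤ 2 := by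
      intro i j hij
      have h1 := hom (Pi.single i 1 - Pi.single j 1)
      have h2 := S_single_sub_le' i j hij
      have e : ∑ k, (WithLp.ofLp x) k * ((Pi.single i (1 : ℝ) - Pi.single j (1 : ℝ) : P20) k)
          = (WithLp.ofLp x) i - (WithLp.ofLp x) j := by
        simp [mul_sub, Finset.sum_sub_distrib, Pi.single_apply]
      rw [e] at h1
      have h3 : (WithLp.ofLp x) i - (WithLp.ofLp x) j ≤ κ * 2 :=
        h1.trans (mul_le_mul_of_nonneg_left h2 hκ.le)
      simp only [Pi.smul_apply, smul_eq_mul]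
      rw [← mul_sub, inv_mul_le_iff₀ hκ]
      exact h3
    refine ⟨fun i => ?_, fun i hi j hj => key i j ⟨fun _ => hj, fun _ => hi⟩,
      fun i hi j hj => key i j ?_⟩
    · have h1 := hom (Pi.single i 1)
      have h2 := hom (Pi.single i (-1))
      rw [S_single'] at h1 h2
      have e1 : ∑ k, (WithLp.ofLp x) k * ((Pi.single i (1 : ℝ) : P20) k) = (WithLp.ofLp x) i := by
        simp [Pi.single_apply]
      have e2 : ∑ k, (WithLp.ofLp x) k * ((Pi.single i (-1 : ℝ) : P20) k) = - (WithLp.ofLp x) i := by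
        simp [Pi.single_apply]
      rw [e1] at h1
      rw [e2] at h2
      simp only [abs_one, abs_neg, mul_one] at h1 h2
      simp only [Pi.smul_apply, smul_eq_mul, abs_mul, abs_inv, abs_of_pos hκ]
      rw [inv_mul_le_iff₀ hκ, abs_le]
      constructor <;> linarith
    · have hi' : i ∉ B1 := by simpa [B2] using hi
      have hj' : j ∉ B1 := by simpa [B2] using hj
      exact ⟨fun h => absurd h hi', fun h => absurd h hj'⟩
  · intro hw u _
    have h1 := sum_mul_le_S' _ (WithLp.ofLp u) hw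
    rw [inner_eq_sum']
    have e : ∑ i, (WithLp.ofLp x) i * (WithLp.ofLp u) i
        = κ * ∑ i, (κ⁻¹ • (WithLp.ofLp x : P20)) i * (WithLp.ofLp u) i := by
      rw [Finset.mul_sum]
      apply Finset.sum_congr rfl
      intro i _
      simp only [Pi.smul_apply, smul_eq_mul]
      rw [← mul_assoc, ← mul_assoc, mul_inv_cancel₀ κ_pos'.ne', one_mul]
    rw [e]
    exact mul_le_mul_of_nonneg_left h1 κ_pos'.le

end Crest.Agent.Helper51.S0355
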